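import Vale.Agent.Lib.P197Y.PolyY

/-!
# P197Y: the data of the Pieri step and the star function (blueprint Sec 5)
-/

open Equiv Finset

namespace Vale.Agent.Lib.P197Y

open Vale.Agent.Lib.P197W

variable {N k t : ℕ}

/-- The data of the Pieri step. -/
structure PieriData (e : Fin N ≃ Fin k ⊕ Fin t) (r₁ c₁ r₂ c₂ r₃ c₃ : Fin k → ℕ)
    (rp₁ cp₁ rp₂ cp₂ rp₃ cp₃ : Fin N → ℕ) : Prop where
  h₁ : IsSum e r₁ c₁ (fun y => (y : ℕ)) (fun _ => 0) rp₁ cp₁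
  h₂ : IsSum e r₂ c₂ (fun y => (y : ℕ)) (fun _ => 0) rp₂ cp₂
  row₃ : ∀ x, rp₃ (e.symm (Sum.inl x)) = r₃ x
  col₃ : ∀ x, cp₃ (e.symm (Sum.inl x)) = c₃ x
  bottom : ∀ z y, cp₃ z = cp₃ (e.symm (Sum.inr y)) → rp₃ z ≤ rp₃ (e.symm (Sum.inr y))
  cell : ∀ z z', rp₃ z = rp₃ z' → cp₃ z = cp₃ z' → z = z'
  count : ∀ i, i < t → (univ.filter fun x => r₁ x = i).card + i + 1 ≤ t

/-- The function on star words attached to the lower level. -/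
def F0 (e : Fin N ≃ Fin k ⊕ Fin t) (r₁ c₁ r₂ c₂ : Fin k → ℕ) (u : SW N) : ℤ :=
  if (∀ y, u (e.symm (Sum.inr y)) = none) ∧ (∀ x, u (e.symm (Sum.inl x)) ≠ none) then
    ptt r₁ c₁ r₂ c₂ (fun x => (u (e.symm (Sum.inl x))).getD (0, 0))
  else 0

/-- The Young operator applied to `F0`. -/
def FF (e : Fin N ≃ Fin k ⊕ Fin t) (r₁ c₁ r₂ c₂ : Fin k → ℕ) (rp₃ cp₃ : Fin N → ℕ) (v : SW N) : ℤ :=
  ∑ ρ ∈ colS rp₃, ∑ q ∈ colS cp₃, sgnZ q * F0 e r₁ c₁ r₂ c₂ (fun x => v (ρ (q x)))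

/-- The star word with stars on the new labels and the word `W₀` on the old labels. -/
def v0 (e : Fin N ≃ Fin k ⊕ Fin t) (W₀ : Fin k → ℕ × ℕ) : SW N :=
  fun z => Sum.elim (fun x => some (W₀ x)) (fun _ => none) (e z)

end Vale.Agent.Lib.P197Y
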