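import Vale.Agent.Lib.P197X.Gottlieb

/-!
# P197Y: injectivity of the inclusion matrix between neighbouring levels (blueprint Sec 1)
-/

open Finset

namespace Vale.Agent.Lib.P197Y

/-- The down operator from `k`-subsets to `(k-1)`-subsets of `Q` is injective when `|Q| < 2k`. -/
theorem down_inj {α : Type*} [DecidableEq α] (Q : Finset α) (k : ℕ) (G : Finset α → ℤ)
    (hk : Q.card < 2 * k)
    (hD : ∀ S' ⊆ Q, S'.card + 1 = k → ∑ p ∈ Q \ S', G (insert p S') = 0) :
    ∀ S ⊆ Q, S.card = k → G S = 0 :=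
  Vale.Agent.Lib.P197X.gottlieb Q k hk G hD

end Vale.Agent.Lib.P197Y
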