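import Vale.Agent.Lib.P197Y.PttSum

/-!
# P197Y: the strip lemma and the evaluation at the base word (blueprint Sec 5.4)
-/

open Equiv Finset

namespace Vale.Agent.Lib.P197Y

open Vale.Agent.Lib.P197W

variable {N k t : ℕ}

private theorem mem_colS' {n : ℕ} {c : Fin n → ℕ} {q : Perm (Fin n)} :
    q ∈ colS c ↔ ∀ x, c (q x) = c x := by
  simp [colS]

/-- The strip lemma: a column permutation followed by a row permutation that keeps the strip
fixes the strip pointwise. -/
theorem strip_fix {e : Fin N ≃ Fin k ⊕ Fin t} {r₁ c₁ r₂ c₂ r₃ c₃ : Fin k → ℕ}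
    {rp₁ cp₁ rp₂ cp₂ rp₃ cp₃ : Fin N → ℕ}
    (D : PieriData e r₁ c₁ r₂ c₂ r₃ c₃ rp₁ cp₁ rp₂ cp₂ rp₃ cp₃)
    {ρ q : Perm (Fin N)} (hρ : ρ ∈ colS rp₃) (hq : q ∈ colS cp₃)
    (h : ∀ y, ∃ y', ρ (q (e.symm (Sum.inr y))) = e.symm (Sum.inr y')) :
    ∀ y, q (e.symm (Sum.inr y)) = e.symm (Sum.inr y) := by
  classical
  rw [mem_colS'] at hρ hq
  choose f hf using h
  have hinj : Function.Injective f := by
    intro y₁ y₂ hy
    have h1 := hf y₁
    rw [hy, ← hf y₂] at h1
    have h2 := q.injective (ρ.injective h1)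
    have h3 := e.symm.injective h2
    exact Sum.inr.inj h3
  have hbij : Function.Bijective f := Finite.injective_iff_bijective.1 hinj
  have hrow : ∀ y, rp₃ (q (e.symm (Sum.inr y))) = rp₃ (e.symm (Sum.inr (f y))) := by
    intro y
    rw [← hf y, hρ]
  have hle : ∀ y, rp₃ (q (e.symm (Sum.inr y))) ≤ rp₃ (e.symm (Sum.inr y)) := by
    intro y
    exact D.bottom _ y (hq _)
  have hsum : ∑ y, rp₃ (q (e.symm (Sum.inr y))) = ∑ y, rp₃ (e.symm (Sum.inr y)) := by
    calc ∑ y, rp₃ (q (e.symm (Sum.inr y))) = ∑ y, rp₃ (e.symm (Sum.inr (f y))) :=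
          Finset.sum_congr rfl fun y _ => hrow y
      _ = ∑ y, rp₃ (e.symm (Sum.inr y)) :=
          hbij.sum_comp (fun y => rp₃ (e.symm (Sum.inr y)))
  have heq := (Finset.sum_eq_sum_iff_of_le (fun y _ => hle y)).1 hsum
  intro y
  exact D.cell _ _ (heq y (Finset.mem_univ y)) (hq _)

/-- A permutation keeping the new labels is a block. -/
private theorem exists_block (e : Fin N ≃ Fin k ⊕ Fin t) (π : Perm (Fin N))
    (h : ∀ y, ∃ y', π (e.symm (Sum.inr y)) = e.symm (Sum.inr y')) :
    ∃ (a : Perm (Fin k)) (b : Perm (Fin t)),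
      π = (e.trans (Equiv.sumCongr a b)).trans e.symm := by
  classical
  let cp : Fin N → ℕ := fun z => Sum.elim (fun _ => 0) (fun _ => 1) (e z)
  have hS : IsSum e (fun _ : Fin k => 0) (fun _ => 0) (fun _ : Fin t => 0) (fun _ => 1)
      (fun _ => 0) cp :=
    { row_inl := fun _ => rfl
      row_inr := fun _ => rfl
      col_inl := by intro x x'; simp [cp]
      col_inr := by intro x x'; simp [cp]
      col_ne := by intro x y; simp [cp] }
  have hπ : π ∈ colS cp := by
    rw [mem_colS']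
    choose f hf using h
    have hinj : Function.Injective f := by
      intro y₁ y₂ hy
      have h1 := hf y₁
      rw [hy, ← hf y₂] at h1
      have h2 := π.injective h1
      have h3 := e.symm.injective h2
      exact Sum.inr.inj h3
    have hsurj : Function.Surjective f := Finite.injective_iff_surjective.1 hinj
    intro z
    rcases he : e z with x | y
    · have hz : z = e.symm (Sum.inl x) := by rw [← he]; simp
      rcases he' : e (π z) with x' | y'
      · simp [cp, he, he']
      · exfalso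
        obtain ⟨y0, hy0⟩ := hsurj y'
        have h1 : π z = π (e.symm (Sum.inr y0)) := by
          rw [hf, hy0, ← he']; simp
        have h2 := π.injective h1
        rw [hz] at h2
        simp at h2
    · have hz : z = e.symm (Sum.inr y) := by rw [← he]; simp
      rw [hz, hf]
      simp [cp]
  obtain ⟨a, _, b, _, hab⟩ := exists_split e hS π hπ
  exact ⟨a, b, hab⟩

/-- The evaluation of the star function at the base word. -/
theorem FF_eval {e : Fin N ≃ Fin k ⊕ Fin t} {r₁ c₁ r₂ c₂ r₃ c₃ : Fin k → ℕ}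
    {rp₁ cp₁ rp₂ cp₂ rp₃ cp₃ : Fin N → ℕ}
    (D : PieriData e r₁ c₁ r₂ c₂ r₃ c₃ rp₁ cp₁ rp₂ cp₂ rp₃ cp₃) (W₀ : Fin k → ℕ × ℕ) :
    FF e r₁ c₁ r₂ c₂ rp₃ cp₃ (v0 e W₀) =
      ((colS (fun y : Fin t => rp₃ (e.symm (Sum.inr y)))).card : ℤ) *
        YY r₃ c₃ (ptt r₁ c₁ r₂ c₂) W₀ := by
  classical
  let B : Perm (Fin k) → Perm (Fin t) → Perm (Fin N) :=
    fun a b => (e.trans (Equiv.sumCongr a b)).trans e.symm
  have B_inl : ∀ a b x, B a b (e.symm (Sum.inl x)) = e.symm (Sum.inl (a x)) := by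
    intro a b x
    simp [B]
  have B_inr : ∀ a b y, B a b (e.symm (Sum.inr y)) = e.symm (Sum.inr (b y)) := by
    intro a b y
    simp [B]
  have hv_inl : ∀ x, v0 e W₀ (e.symm (Sum.inl x)) = some (W₀ x) := by
    intro x
    simp [v0]
  have hv_inr : ∀ y, v0 e W₀ (e.symm (Sum.inr y)) = none := by
    intro y
    simp [v0]
  -- the three index sets
  let I := colS (fun y : Fin t => rp₃ (e.symm (Sum.inr y)))
  let R := colS r₃
  let C' := colS c₃
  let G : Perm (Fin N) × Perm (Fin N) → ℤ := fun p =>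
    sgnZ p.2 * F0 e r₁ c₁ r₂ c₂ (fun x => v0 e W₀ (p.1 (p.2 x)))
  let f : Perm (Fin t) × (Perm (Fin k) × Perm (Fin k)) → ℤ := fun p =>
    sgnZ p.2.2 * ptt r₁ c₁ r₂ c₂ (fun x => W₀ (p.2.1 (p.2.2 x)))
  have hL : FF e r₁ c₁ r₂ c₂ rp₃ cp₃ (v0 e W₀) = ∑ p ∈ colS rp₃ ×ˢ colS cp₃, G p := by
    unfold FF
    rw [Finset.sum_product]
  have hR : ((I.card : ℕ) : ℤ) * YY r₃ c₃ (ptt r₁ c₁ r₂ c₂) W₀ = ∑ p ∈ I ×ˢ (R ×ˢ C'), f p := by
    unfold YY
    rw [Finset.sum_product]
    simp only [Finset.sum_const, nsmul_eq_mul, f]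
    rw [Finset.sum_product]
  rw [hL]
  change _ = ((I.card : ℕ) : ℤ) * _
  rw [hR]
  symm
  refine Finset.sum_of_injOn (fun p => (B p.2.1 p.1, B p.2.2 1)) ?_ ?_ ?_ ?_
  · -- injectivity
    intro p _ p' _ hpp
    have hpp' : (B p.2.1 p.1, B p.2.2 1) = (B p'.2.1 p'.1, B p'.2.2 1) := hpp
    have h1 : B p.2.1 p.1 = B p'.2.1 p'.1 := congrArg Prod.fst hpp'
    have h2 : B p.2.2 1 = B p'.2.2 1 := congrArg Prod.snd hpp'
    have ha1 : p.2.1 = p'.2.1 := by
      ext x
      have := congrArg (fun g : Perm (Fin N) => g (e.symm (Sum.inl x))) h1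
      simp only [B_inl] at this
      have h3 := Sum.inl.inj (e.symm.injective this)
      rw [h3]
    have hb1 : p.1 = p'.1 := by
      ext y
      have := congrArg (fun g : Perm (Fin N) => g (e.symm (Sum.inr y))) h1
      simp only [B_inr] at this
      have h3 := Sum.inr.inj (e.symm.injective this)
      rw [h3]
    have ha2 : p.2.2 = p'.2.2 := by
      ext x
      have := congrArg (fun g : Perm (Fin N) => g (e.symm (Sum.inl x))) h2
      simp only [B_inl] at this
      have h3 := Sum.inl.inj (e.symm.injective this)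
      rw [h3]
    exact Prod.ext hb1 (Prod.ext ha1 ha2)
  · -- maps to
    intro p hp
    have hp' := Finset.mem_coe.1 hp
    simp only [Finset.mem_product] at hp'
    obtain ⟨hb, ha, ha'⟩ := hp'
    have hb' : ∀ y, rp₃ (e.symm (Sum.inr (p.1 y))) = rp₃ (e.symm (Sum.inr y)) := mem_colS'.1 hb
    have ha1 : ∀ x, r₃ (p.2.1 x) = r₃ x := mem_colS'.1 ha
    have ha2 : ∀ x, c₃ (p.2.2 x) = c₃ x := mem_colS'.1 ha'
    refine Finset.mem_coe.2 (Finset.mem_product.2 ⟨?_, ?_⟩)
    · rw [mem_colS']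
      intro z
      obtain ⟨u, rfl⟩ := e.symm.surjective z
      rcases u with x | y
      · change rp₃ (B p.2.1 p.1 (e.symm (Sum.inl x))) = _
        rw [B_inl, D.row₃, D.row₃, ha1]
      · change rp₃ (B p.2.1 p.1 (e.symm (Sum.inr y))) = _
        rw [B_inr, hb']
    · rw [mem_colS']
      intro z
      obtain ⟨u, rfl⟩ := e.symm.surjective z
      rcases u with x | y
      · change cp₃ (B p.2.2 1 (e.symm (Sum.inl x))) = _
        rw [B_inl, D.col₃, D.col₃, ha2]
      · change cp₃ (B p.2.2 1 (e.symm (Sum.inr y))) = _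
        rw [B_inr]
        rfl
  · -- the other terms vanish
    intro p hp hnot
    by_contra hG
    apply hnot
    obtain ⟨ρ, q⟩ := p
    have hp' := Finset.mem_coe.1 hp
    simp only [Finset.mem_product] at hp'
    obtain ⟨hρ, hq⟩ := hp'
    have hF : F0 e r₁ c₁ r₂ c₂ (fun x => v0 e W₀ (ρ (q x))) ≠ 0 := by
      intro h0
      apply hG
      simp only [G, h0, mul_zero]
    have hcond : (∀ y, v0 e W₀ (ρ (q (e.symm (Sum.inr y)))) = none) := by
      by_contra hne
      apply hF
      unfold F0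
      rw [if_neg]
      intro h
      exact hne h.1
    have hex : ∀ y, ∃ y', ρ (q (e.symm (Sum.inr y))) = e.symm (Sum.inr y') := by
      intro y
      have h1 := hcond y
      rcases he : e (ρ (q (e.symm (Sum.inr y)))) with x' | y'
      · exfalso
        have h2 : ρ (q (e.symm (Sum.inr y))) = e.symm (Sum.inl x') := by
          rw [← he]; simp
        rw [h2, hv_inl] at h1
        exact absurd h1 (by simp)
      · refine ⟨y', ?_⟩
        rw [← he]; simp
    have hfix := strip_fix D hρ hq hex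
    have hq' := mem_colS'.1 hq
    have hρ' := mem_colS'.1 hρ
    obtain ⟨a, b, hab⟩ := exists_block e q (fun y => ⟨y, hfix y⟩)
    have hb1 : b = 1 := by
      ext y
      have h1 := hfix y
      rw [hab] at h1
      have h2 : B a b (e.symm (Sum.inr y)) = e.symm (Sum.inr y) := h1
      rw [B_inr] at h2
      have h3 := Sum.inr.inj (e.symm.injective h2)
      rw [h3]
      rfl
    subst hb1
    have hex' : ∀ y, ∃ y', ρ (e.symm (Sum.inr y)) = e.symm (Sum.inr y') := by
      intro y
      obtain ⟨y', hy'⟩ := hex y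
      rw [hfix y] at hy'
      exact ⟨y', hy'⟩
    obtain ⟨a', b', hab'⟩ := exists_block e ρ hex'
    have hqB : q = B a 1 := hab
    have hρB : ρ = B a' b' := hab'
    refine ⟨(b', (a', a)), ?_, ?_⟩
    · refine Finset.mem_coe.2 (Finset.mem_product.2 ⟨?_, Finset.mem_product.2 ⟨?_, ?_⟩⟩)
      · rw [mem_colS']
        intro y
        have h1 := hρ' (e.symm (Sum.inr y))
        rw [hρB, B_inr] at h1
        exact h1
      · rw [mem_colS']
        intro x
        have h1 := hρ' (e.symm (Sum.inl x))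
        rw [hρB, B_inl, D.row₃, D.row₃] at h1
        exact h1
      · rw [mem_colS']
        intro x
        have h1 := hq' (e.symm (Sum.inl x))
        rw [hqB, B_inl, D.col₃, D.col₃] at h1
        exact h1
    · simp only [hρB, hqB]
  · -- the values agree
    intro p _
    have hsgn : sgnZ (B p.2.2 1) = sgnZ p.2.2 := by
      have := sgnZ_block e p.2.2 (1 : Perm (Fin t))
      have h1 : sgnZ (1 : Perm (Fin t)) = 1 := by simp [sgnZ]
      rw [h1, mul_one] at this
      exact this
    change sgnZ p.2.2 * ptt r₁ c₁ r₂ c₂ (fun x => W₀ (p.2.1 (p.2.2 x))) =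
      sgnZ (B p.2.2 1) * F0 e r₁ c₁ r₂ c₂ (fun x => v0 e W₀ (B p.2.1 p.1 (B p.2.2 1 x)))
    rw [hsgn]
    congr 1
    unfold F0
    rw [if_pos]
    · congr 1
      funext x
      beta_reduce
      rw [B_inl, B_inl, hv_inl]
      rfl
    · constructor
      · intro y
        beta_reduce
        rw [B_inr, B_inr, hv_inr]
      · intro x
        beta_reduce
        rw [B_inl, B_inl, hv_inl]
        simp

end Vale.Agent.Lib.P197Y
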