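import Vale.Agent.Lib.P197Y.Ladder
import Vale.Agent.Lib.P197W.Defs

/-!
# P197Y: the signed map is injective (blueprint Sec 3)
-/

open Equiv Finset

namespace Vale.Agent.Lib.P197Y

open Vale.Agent.Lib.P197W

variable {n : ℕ}

/-- The polytabloid as a function of a word. -/
def pt (r c : Fin n → ℕ) (w : Fin n → ℕ) : ℤ :=
  ∑ q ∈ colS c, sgnZ q * (if ∀ x, r (q x) = w x then 1 else 0)

/-- The polytabloid of a single column: the sign of `u` if `u` is a permutation, else zero. -/
def sgnS (t : ℕ) (u : Fin t → ℕ) : ℤ := pt (fun y : Fin t => (y : ℕ)) (fun _ => 0) u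

/-- The product of the two signs on the positions `f`. -/
def eps {t : ℕ} (W : Fin n → ℕ × ℕ) (f : Fin t → Fin n) : ℤ :=
  sgnS t (fun y => (W (f y)).1) * sgnS t (fun y => (W (f y)).2)

/-- The star word of `W` with stars on the range of `f`. -/
def starOf {t : ℕ} (W : Fin n → ℕ × ℕ) (f : Fin t → Fin n) : SW n :=
  fun x => if ∃ y, f y = x then none else some (W x)

/-- The number of positions with a diagonal letter. -/
def diagCount (v : SW n) : ℕ :=
  (univ.filter fun x => Option.any (fun a => decide (a.1 = a.2)) (v x) = true).card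

private theorem sgnS_comp_perm {t : ℕ} (u : Fin t → ℕ) (b : Perm (Fin t)) :
    sgnS t (u ∘ b) = sgnZ b * sgnS t u := by
  unfold sgnS pt
  have hcolS : colS (fun _ : Fin t => 0) = (univ : Finset (Perm (Fin t))) := by
    ext q
    simp [colS]
  rw [hcolS, Finset.mul_sum]
  refine Finset.sum_equiv (Equiv.mulRight b⁻¹) (by simp) ?_
  intro q _
  have hs : sgnZ q = sgnZ b * sgnZ (q * b⁻¹) := by
    unfold sgnZ
    simp only [map_mul, Equiv.Perm.sign_inv]
    push_cast
    have h1 : ((Perm.sign b : ℤˣ) : ℤ) * ((Perm.sign b : ℤˣ) : ℤ) = 1 := by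
      rw [← Units.val_mul, Int.units_mul_self]; rfl
    calc ((Perm.sign q : ℤˣ) : ℤ) = ((Perm.sign b : ℤˣ) : ℤ) * ((Perm.sign b : ℤˣ) : ℤ) * ((Perm.sign q : ℤˣ) : ℤ) := by rw [h1, one_mul]
      _ = _ := by ring
  have hc : (∀ x : Fin t, ((q x : Fin t) : ℕ) = (u ∘ b) x) ↔
      ∀ x : Fin t, (((q * b⁻¹) x : Fin t) : ℕ) = u x := by
    constructor
    · intro h x
      have := h (b⁻¹ x)
      simpa using this
    · intro h x
      have := h (b x)
      simpa using this
  have e : (Equiv.mulRight b⁻¹) q = q * b⁻¹ := rfl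
  simp only [e]
  split_ifs with h1 h2 h2
  · rw [hs]; ring
  · exact absurd (hc.1 h1) h2
  · exact absurd (hc.2 h2) h1
  · ring

/-- `eps` does not see a permutation of the positions. -/
theorem eps_comp_perm {t : ℕ} (W : Fin n → ℕ × ℕ) (f : Fin t → Fin n) (b : Perm (Fin t)) :
    eps W (f ∘ b) = eps W f := by
  unfold eps
  have h1 := sgnS_comp_perm (fun y => (W (f y)).1) b
  have h2 := sgnS_comp_perm (fun y => (W (f y)).2) b
  have h1' : sgnS t (fun y => (W ((f ∘ b) y)).1) = sgnZ b * sgnS t (fun y => (W (f y)).1) := h1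
  have h2' : sgnS t (fun y => (W ((f ∘ b) y)).2) = sgnZ b * sgnS t (fun y => (W (f y)).2) := h2
  rw [h1', h2']
  have h3 : sgnZ b * sgnZ b = 1 := by
    unfold sgnZ
    rw [← Units.val_mul, Int.units_mul_self]; rfl
  calc _ = (sgnZ b * sgnZ b) * (sgnS t (fun y => (W (f y)).1) * sgnS t (fun y => (W (f y)).2)) := by ring
    _ = _ := by rw [h3, one_mul]


section MainInjProof

variable {t : ℕ}

private lemma sgnZ_sq_inj (q : Perm (Fin t)) : sgnZ q * sgnZ q = 1 := by
  rcases Int.units_eq_one_or (Perm.sign q) with h | h <;> simp [sgnZ, h]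

/-- `sgnS` on the values of a permutation. -/
private lemma sgnS_of_perm (b : Perm (Fin t)) (u : Fin t → ℕ) (hu : ∀ y, u y = (b y : ℕ)) :
    sgnS t u = sgnZ b := by
  unfold sgnS pt
  rw [Finset.sum_eq_single b]
  · rw [if_pos (fun x => (hu x).symm), mul_one]
  · intro q _ hq
    rw [if_neg, mul_zero]
    intro h
    apply hq
    ext y
    exact (h y).trans (hu y)
  · intro hb
    exfalso
    apply hb
    simp [colS]

/-- A non zero `sgnS` comes from a permutation. -/
private lemma exists_perm_of_sgnS_ne (u : Fin t → ℕ) (h : sgnS t u ≠ 0) :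
    ∃ b : Perm (Fin t), ∀ y, u y = (b y : ℕ) := by
  unfold sgnS pt at h
  obtain ⟨q, _, hq⟩ := Finset.exists_ne_zero_of_sum_ne_zero h
  by_cases hc : ∀ x : Fin t, (q x : ℕ) = u x
  · exact ⟨q, fun y => (hc y).symm⟩
  · rw [if_neg hc, mul_zero] at hq
    exact absurd rfl hq

/-- The diagonal positions of a word. -/
private def dgW (W : Fin n → ℕ × ℕ) : Finset (Fin n) := univ.filter fun x => (W x).1 = (W x).2

private lemma diagCount_some (W : Fin n → ℕ × ℕ) (f : Fin t → Fin n) :
    diagCount (starOf W f) = (dgW W \ (univ.image f)).card := by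
  unfold diagCount
  congr 1
  ext x
  rw [Finset.mem_filter, Finset.mem_sdiff]
  by_cases hx : ∃ y, f y = x
  · have e : starOf W f x = none := if_pos hx
    rw [e]
    simp [hx]
  · have e : starOf W f x = some (W x) := if_neg hx
    rw [e]
    simp [dgW, hx]

private lemma diagCount_le (v : SW n) : diagCount v ≤ n := by
  unfold diagCount
  calc _ ≤ (univ : Finset (Fin n)).card := Finset.card_filter_le _ _
    _ = n := by simp

/-- The sections of a word. -/
private def secW (W : Fin n → ℕ × ℕ) (t : ℕ) : Finset (Fin t → Fin n) :=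
  univ.filter fun s => ∀ i : Fin t, W (s i) = ((i : ℕ), (i : ℕ))

private lemma mem_secW (W : Fin n → ℕ × ℕ) (s : Fin t → Fin n) :
    s ∈ secW W t ↔ ∀ i : Fin t, W (s i) = ((i : ℕ), (i : ℕ)) := by
  simp [secW]

private lemma sec_inj {W : Fin n → ℕ × ℕ} {s : Fin t → Fin n} (hs : s ∈ secW W t) :
    Function.Injective s := by
  intro i j hij
  have h1 := (mem_secW W s).1 hs i
  have h2 := (mem_secW W s).1 hs j
  rw [hij, h2] at h1
  exact Fin.ext (congrArg Prod.fst h1).symm

/-- On sections the number of diagonal letters drops by exactly `t`. -/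
private lemma diagCount_sec {W : Fin n → ℕ × ℕ} {s : Fin t → Fin n} (hs : s ∈ secW W t) :
    diagCount (starOf W s) + t = (dgW W).card := by
  rw [diagCount_some]
  have hsub : univ.image s ⊆ dgW W := by
    intro x hx
    obtain ⟨i, -, rfl⟩ := Finset.mem_image.1 hx
    have := (mem_secW W s).1 hs i
    simp [dgW, this]
  have hc : (univ.image s).card = t := by
    rw [Finset.card_image_of_injective _ (sec_inj hs)]
    simp
  have := Finset.card_sdiff_add_card_eq_card hsub
  omega

/-- An injective `f` with a position off the diagonal keeps more diagonal letters. -/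
private lemma diagCount_off {W : Fin n → ℕ × ℕ} {f : Fin t → Fin n} (hf : Function.Injective f)
    {y : Fin t} (hy : (W (f y)).1 ≠ (W (f y)).2) :
    (dgW W).card + 1 ≤ diagCount (starOf W f) + t := by
  rw [diagCount_some]
  have hc : (univ.image f).card = t := by
    rw [Finset.card_image_of_injective _ hf]
    simp
  have h1 := Finset.card_sdiff_add_card_inter (dgW W) (univ.image f)
  have h2 : (dgW W ∩ univ.image f).card < (univ.image f).card := by
    apply Finset.card_lt_card
    refine ⟨Finset.inter_subset_right, fun h => ?_⟩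
    have hm : f y ∈ dgW W ∩ univ.image f := h (Finset.mem_image_of_mem f (Finset.mem_univ y))
    have := (Finset.mem_inter.1 hm).1
    simp [dgW] at this
    exact hy this
  omega

private lemma starOf_comp_perm (W : Fin n → ℕ × ℕ) (s : Fin t → Fin n) (b : Perm (Fin t)) :
    starOf W (s ∘ b) = starOf W s := by
  funext x
  have h : (∃ y, (s ∘ b) y = x) ↔ ∃ y, s y = x :=
    ⟨fun ⟨y, hy⟩ => ⟨b y, hy⟩, fun ⟨y, hy⟩ => ⟨b⁻¹ y, by simp [hy]⟩⟩
  simp only [starOf, h]

private lemma eps_sec {W : Fin n → ℕ × ℕ} {s : Fin t → Fin n} (hs : s ∈ secW W t)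
    (b : Perm (Fin t)) : eps W (s ∘ b) = 1 := by
  unfold eps
  have h := (mem_secW W s).1 hs
  rw [sgnS_of_perm b _ (fun y => by simp [h]), sgnS_of_perm b _ (fun y => by simp [h])]
  exact sgnZ_sq_inj b

/-- The signed sum collapses to the sections. -/
private lemma psi_sum_sec (F : SW n → ℤ) (W : Fin n → ℕ × ℕ)
    (hoff : ∀ f : Fin t → Fin n, Function.Injective f → (∃ y, (W (f y)).1 ≠ (W (f y)).2) →
      F (starOf W f) = 0) :
    ∑ f : Fin t → Fin n, eps W f * F (starOf W f) =
      (t.factorial : ℤ) * ∑ s ∈ secW W t, F (starOf W s) := by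
  classical
  set Φ : (Fin t → Fin n) × Perm (Fin t) → (Fin t → Fin n) := fun p => p.1 ∘ p.2 with hΦ
  have hinj : Set.InjOn Φ (↑(secW W t ×ˢ (univ : Finset (Perm (Fin t))))) := by
    rintro ⟨s, b⟩ hp ⟨s', b'⟩ hp' h
    have hs : s ∈ secW W t := (Finset.mem_product.1 hp).1
    have hs' : s' ∈ secW W t := (Finset.mem_product.1 hp').1
    have h1 : ∀ y, s (b y) = s' (b' y) := fun y => congrFun h y
    have hb : b = b' := by
      ext y
      have e1 := (mem_secW W s).1 hs (b y)
      have e2 := (mem_secW W s').1 hs' (b' y)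
      rw [h1 y, e2] at e1
      exact (congrArg Prod.fst e1).symm
    subst hb
    have hss : s = s' := by
      funext i
      have := h1 (b⁻¹ i)
      simpa using this
    rw [hss]
  have hout : ∀ f ∈ (univ : Finset (Fin t → Fin n)),
      f ∉ (secW W t ×ˢ (univ : Finset (Perm (Fin t)))).image Φ →
      eps W f * F (starOf W f) = 0 := by
    intro f _ hf
    by_cases he : eps W f = 0
    · rw [he, zero_mul]
    · have h1 : sgnS t (fun y => (W (f y)).1) ≠ 0 := fun h0 => he (by unfold eps; rw [h0, zero_mul])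
      have h2 : sgnS t (fun y => (W (f y)).2) ≠ 0 := fun h0 => he (by unfold eps; rw [h0, mul_zero])
      obtain ⟨b₁, hb₁⟩ := exists_perm_of_sgnS_ne _ h1
      obtain ⟨b₂, hb₂⟩ := exists_perm_of_sgnS_ne _ h2
      have hfinj : Function.Injective f := by
        intro x y hxy
        have e : ((b₁ x : Fin t) : ℕ) = (b₁ y : Fin t) := by
          rw [← hb₁ x, ← hb₁ y, hxy]
        exact b₁.injective (Fin.ext e)
      by_cases hd : ∃ y, (W (f y)).1 ≠ (W (f y)).2
      · rw [hoff f hfinj hd, mul_zero]
      · exfalso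
        apply hf
        have hd' : ∀ y, (W (f y)).1 = (W (f y)).2 := fun y => by_contra fun hy => hd ⟨y, hy⟩
        have hb : b₁ = b₂ := by
          ext y
          rw [← hb₁ y, ← hb₂ y, hd' y]
        subst hb
        refine Finset.mem_image.2 ⟨(f ∘ (b₁⁻¹ : Perm (Fin t)), b₁), Finset.mem_product.2 ⟨?_, Finset.mem_univ _⟩, ?_⟩
        · rw [mem_secW]
          intro i
          have e1 := hb₁ (b₁⁻¹ i)
          have e2 := hb₂ (b₁⁻¹ i)
          have e3 : b₁ (b₁⁻¹ i) = i := by simp
          rw [e3] at e1 e2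
          exact Prod.ext e1 e2
        · funext y
          simp [hΦ]
  rw [← Finset.sum_subset (Finset.subset_univ _) hout, Finset.sum_image hinj, Finset.sum_product]
  rw [Finset.mul_sum]
  apply Finset.sum_congr rfl
  intro s hs
  have e : ∀ b ∈ (univ : Finset (Perm (Fin t))),
      eps W (Φ (s, b)) * F (starOf W (Φ (s, b))) = F (starOf W s) := by
    intro b _
    simp only [hΦ]
    rw [eps_sec hs b, one_mul, starOf_comp_perm]
  rw [Finset.sum_congr rfl e, Finset.sum_const, Finset.card_univ, Fintype.card_perm, Fintype.card_fin]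
  simp

/-- One step of the downward induction on the number of diagonal letters. -/
private lemma main_inj_step (t : ℕ) (F : SW n → ℤ) (hsupp : ∀ v, F v ≠ 0 → Dom t 0 v)
    (hPsi : ∀ W : Fin n → ℕ × ℕ, ∑ f : Fin t → Fin n, eps W f * F (starOf W f) = 0)
    (δ : ℕ) (IH : ∀ v, δ + 1 ≤ diagCount v → F v = 0) : ∀ v, δ ≤ diagCount v → F v = 0 := by
  classical
  intro v hv
  by_cases h : δ + 1 ≤ diagCount v
  · exact IH v h
  have hvd : diagCount v = δ := by omega
  by_contra hne
  set F' : SW n → ℤ := fun v => if diagCount v = δ then F v else 0 with hF'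
  have hkey : ∀ W : Fin n → ℕ × ℕ, lad F' t (fun x => some (W x)) = 0 := by
    intro W
    rw [lad_eq_sum]
    have hfil : ((univ : Finset (Fin t → Fin n)).filter
        (fun s => ∀ i : Fin t, (fun x => some (W x)) (s i) = some ((i : ℕ), (i : ℕ)))) = secW W t := by
      ext s
      simp [secW]
    rw [hfil]
    have hterm : ∀ s ∈ secW W t, F' (starAll (fun x => some (W x)) s) =
        if (dgW W).card = δ + t then F (starOf W s) else 0 := by
      intro s hs
      have e : starAll (fun x => some (W x)) s = starOf W s := rfl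
      rw [e]
      have hd := diagCount_sec hs
      simp only [hF']
      by_cases hD : (dgW W).card = δ + t
      · rw [if_pos hD, if_pos (by omega)]
      · rw [if_neg hD, if_neg (by omega)]
    rw [Finset.sum_congr rfl hterm]
    by_cases hD : (dgW W).card = δ + t
    · simp only [if_pos hD]
      have hoff : ∀ f : Fin t → Fin n, Function.Injective f →
          (∃ y, (W (f y)).1 ≠ (W (f y)).2) → F (starOf W f) = 0 := by
        rintro f hf ⟨y, hy⟩
        apply IH
        have := diagCount_off hf hy
        omega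
      have h0 := psi_sum_sec F W hoff
      rw [hPsi W] at h0
      have hfac : (t.factorial : ℤ) ≠ 0 := by exact_mod_cast t.factorial_ne_zero
      exact (mul_eq_zero.1 h0.symm).resolve_left hfac
    · simp only [if_neg hD, Finset.sum_const_zero]
  have hlad : ∀ w : SW n, (stars w).card = 0 → lad F' t w = 0 := by
    intro w hw
    have hw0 : ∀ x, w x ≠ none := by
      intro x hx
      have : x ∈ stars w := by simp [stars, hx]
      rw [Finset.card_eq_zero] at hw
      rw [hw] at this
      simp at this
    have e : w = fun x => some ((w x).getD (0, 0)) := by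
      funext x
      rcases hc : w x with _ | a
      · exact absurd hc (hw0 x)
      · simp
    rw [e]
    exact hkey _
  have h1 := lad_zero F' t hlad v (hsupp v hne)
  simp only [hF', if_pos hvd] at h1
  exact hne h1

end MainInjProof

/-- **Main injectivity.** -/
theorem main_inj (t : ℕ) (F : SW n → ℤ) (hsupp : ∀ v, F v ≠ 0 → Dom t 0 v)
    (hPsi : ∀ W : Fin n → ℕ × ℕ, ∑ f : Fin t → Fin n, eps W f * F (starOf W f) = 0) :
    ∀ v, F v = 0 := by
  have main : ∀ k δ : ℕ, δ + k = n + 1 → ∀ v, δ ≤ diagCount v → F v = 0 := by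
    intro k
    induction k with
    | zero =>
      intro δ hδ v hv
      have := diagCount_le v
      omega
    | succ k ih =>
      intro δ hδ
      exact main_inj_step t F hsupp hPsi δ (ih (δ + 1) (by omega))
  intro v
  exact main (n + 1) 0 (by omega) v (Nat.zero_le _)

end Vale.Agent.Lib.P197Y
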