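import Vale.Agent.Lib.P197Y.Down

/-!
# P197Y: the ladder of operators on star words (blueprint Sec 2)
-/

open Finset

namespace Vale.Agent.Lib.P197Y

variable {n : ℕ}

/-- Star words: `none` is the star, `some (a, b)` a pair of letters. -/
abbrev SW (n : ℕ) := Fin n → Option (ℕ × ℕ)

/-- The positions of the stars. -/
def stars (v : SW n) : Finset (Fin n) := univ.filter fun x => v x = none

/-- The number of positions whose first letter is `i`. -/
def fstCount (v : SW n) (i : ℕ) : ℕ := (univ.filter fun x => (v x).map Prod.fst = some i).card

/-- The ladder: `lad F (j + 1) v` sums `lad F j` over the positions of the letter `(j, j)`. -/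
def lad (F : SW n → ℤ) : ℕ → SW n → ℤ
  | 0 => F
  | j + 1 => fun v =>
    ∑ p ∈ univ.filter (fun p => v p = some (j, j)), lad F j (Function.update v p none)

/-- The domain of the `j`-th rung for the top level `t`. -/
def Dom (t j : ℕ) (v : SW n) : Prop :=
  (stars v).card + j = t ∧ ∀ i, j ≤ i → i < t → fstCount v i + i + 1 ≤ t

namespace LadderAux

/-- The word with stars on `S`, the letter `(j,j)` on the rest of `Q`, and `v` elsewhere. -/
def vS (v : SW n) (Q : Finset (Fin n)) (j : ℕ) (S : Finset (Fin n)) : SW n :=
  fun x => if x ∈ S then none else if x ∈ Q then some (j, j) else v x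

lemma lad_step_zero (F : SW n → ℤ) (t : ℕ) (h : ∀ v : SW n, (stars v).card = 0 → lad F t v = 0) :
    ∀ d j, j + d = t → ∀ v : SW n, Dom t j v → lad F j v = 0 := by
  intro d
  induction d with
  | zero =>
    intro j hj v hv
    have : j = t := by omega
    subst this
    exact h v (by have := hv.1; omega)
  | succ d ih =>
    intro j hj v0 hv0
    obtain ⟨hs, hc⟩ := hv0
    set Qa : Finset (Fin n) := univ.filter fun p => v0 p = some (j, j) with hQa
    set Q : Finset (Fin n) := stars v0 ∪ Qa with hQ
    have hkdef : (stars v0).card = d + 1 := by omega
    have hQacard : Qa.card ≤ fstCount v0 j := by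
      refine Finset.card_le_card fun x hx => ?_
      have hx' := (mem_filter.1 hx).2
      refine mem_filter.2 ⟨mem_univ x, ?_⟩
      rw [hx']
      rfl
    have hf := hc j le_rfl (by omega)
    have hcard : Q.card < 2 * (d + 1) := by
      have h1 : Q.card ≤ (stars v0).card + Qa.card := Finset.card_union_le _ _
      omega
    have hstarsub : stars v0 ⊆ Q := Finset.subset_union_left
    have hkey : ∀ A ⊆ Q, A.card + 1 = d + 1 →
        ∑ z ∈ Q \ A, lad F j (vS v0 Q j (insert z A)) = 0 := by
      intro A hAQ hAc
      have hstarsA : stars (vS v0 Q j A) = A := by
        ext x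
        rw [stars, mem_filter]
        simp only [mem_univ, true_and]
        unfold vS
        by_cases hxA : x ∈ A
        · simp [hxA]
        · rw [if_neg hxA]
          by_cases hxQ : x ∈ Q
          · rw [if_pos hxQ]
            simp [hxA]
          · rw [if_neg hxQ]
            constructor
            · intro h0
              exact absurd (hstarsub (mem_filter.2 ⟨mem_univ x, h0⟩)) hxQ
            · intro h0
              exact absurd h0 hxA
      have hdom : Dom t (j + 1) (vS v0 Q j A) := by
        refine ⟨by rw [hstarsA]; omega, fun i hi hit => ?_⟩
        have hsub : fstCount (vS v0 Q j A) i ≤ fstCount v0 i := by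
          refine Finset.card_le_card fun x hx => ?_
          have hx' := (mem_filter.1 hx).2
          refine mem_filter.2 ⟨mem_univ x, ?_⟩
          simp only [vS] at hx'
          by_cases hxA : x ∈ A
          · simp [hxA] at hx'
          · simp only [hxA, if_false] at hx'
            by_cases hxQ : x ∈ Q
            · simp only [hxQ, if_true, Option.map_some, Option.some.injEq] at hx'
              omega
            · simpa only [hxQ, if_false] using hx'
        have := hc i (by omega) hit
        omega
      have hlad := ih (j + 1) (by omega) _ hdom
      simp only [lad] at hlad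
      rw [← hlad]
      refine Finset.sum_congr ?_ fun z hz => ?_
      · ext p
        rw [mem_sdiff, mem_filter]
        simp only [mem_univ, true_and]
        unfold vS
        by_cases hpA : p ∈ A
        · simp [hpA]
        · rw [if_neg hpA]
          by_cases hpQ : p ∈ Q
          · simp [hpQ, hpA]
          · rw [if_neg hpQ]
            constructor
            · intro h0
              exact absurd h0.1 hpQ
            · intro h0
              exact absurd (Finset.mem_union_right _ (mem_filter.2 ⟨mem_univ p, h0⟩)) hpQ
      · congr 1
        funext x
        simp only [vS, Function.update_apply, mem_insert]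
        by_cases hxz : x = z
        · simp [hxz]
        · simp [hxz]
    have hgot := down_inj Q (d + 1) (fun S => lad F j (vS v0 Q j S)) hcard hkey (stars v0) hstarsub
      hkdef
    have hv : vS v0 Q j (stars v0) = v0 := by
      funext x
      simp only [vS]
      by_cases hxs : x ∈ stars v0
      · rw [if_pos hxs]
        exact ((mem_filter.1 hxs).2).symm
      · rw [if_neg hxs]
        by_cases hxQ : x ∈ Q
        · rw [if_pos hxQ]
          rcases mem_union.1 hxQ with h1 | h1
          · exact absurd h1 hxs
          · exact ((mem_filter.1 h1).2).symm
        · rw [if_neg hxQ]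
    have hgot' : lad F j (vS v0 Q j (stars v0)) = 0 := hgot
    rw [hv] at hgot'
    exact hgot'

end LadderAux

/-- The ladder is injective on its domain. -/
theorem lad_zero (F : SW n → ℤ) (t : ℕ)
    (h : ∀ v : SW n, (stars v).card = 0 → lad F t v = 0) :
    ∀ v : SW n, Dom t 0 v → F v = 0 := by
  intro v hv
  exact LadderAux.lad_step_zero F t h t 0 (by omega) v hv

/-- Replace the positions in the range of `s` by stars. -/
def starAll (v : SW n) {j : ℕ} (s : Fin j → Fin n) : SW n :=
  fun x => if ∃ y, s y = x then none else v x

/-- The ladder as a sum over sections. -/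
theorem lad_eq_sum (F : SW n → ℤ) (j : ℕ) (v : SW n) :
    lad F j v = ∑ s ∈ (univ : Finset (Fin j → Fin n)).filter
      (fun s => ∀ i : Fin j, v (s i) = some ((i : ℕ), (i : ℕ))), F (starAll v s) := by
  induction j generalizing v with
  | zero =>
    have hs : (univ : Finset (Fin 0 → Fin n)).filter
        (fun s => ∀ i : Fin 0, v (s i) = some ((i : ℕ), (i : ℕ))) = {Fin.elim0} := by
      ext s
      simp only [mem_filter, mem_univ, true_and, mem_singleton]
      constructor
      · intro _
        funext i
        exact i.elim0
      · intro _ i
        exact i.elim0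
    rw [hs, sum_singleton]
    have hst : starAll v (Fin.elim0 : Fin 0 → Fin n) = v := by
      funext x
      simp [starAll]
    rw [hst]
    rfl
  | succ j ih =>
    simp only [lad]
    simp_rw [ih]
    rw [Finset.sum_sigma']
    refine Finset.sum_bij' (fun x _ => Fin.snoc (α := fun _ => Fin n) x.2 x.1)
      (fun s _ => ⟨s (Fin.last j), fun i => s i.castSucc⟩) ?_ ?_ ?_ ?_ ?_
    · rintro ⟨p, s⟩ hx
      simp only [mem_sigma, mem_filter, mem_univ, true_and] at hx ⊢
      obtain ⟨hp, hs⟩ := hx
      refine fun i => Fin.lastCases ?_ (fun i' => ?_) i
      · simpa [Fin.snoc_last] using hp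
      · have h1 := hs i'
        simp only [Fin.snoc_castSucc, Fin.val_castSucc]
        by_cases hpe : s i' = p
        · subst hpe
          simp at h1
        · rwa [Function.update_of_ne hpe] at h1
    · intro s hs
      simp only [mem_sigma, mem_filter, mem_univ, true_and] at hs ⊢
      refine ⟨by simpa using hs (Fin.last j), fun i => ?_⟩
      have hne : s i.castSucc ≠ s (Fin.last j) := by
        intro h0
        have h1 := hs i.castSucc
        have h2 := hs (Fin.last j)
        rw [h0, h2] at h1
        have h3 := i.2
        simp only [Option.some.injEq, Prod.mk.injEq, Fin.val_castSucc, Fin.val_last] at h1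
        omega
      rw [Function.update_of_ne hne]
      simpa using hs i.castSucc
    · rintro ⟨p, s⟩ _
      simp [Fin.snoc_last, Fin.snoc_castSucc]
    · intro s _
      funext i
      refine Fin.lastCases ?_ (fun i' => ?_) i
      · simp [Fin.snoc_last]
      · simp [Fin.snoc_castSucc]
    · rintro ⟨p, s⟩ _
      congr 1
      funext x
      simp only [starAll, Function.update_apply]
      by_cases hxp : x = p
      · subst hxp
        have : ∃ i : Fin (j + 1), (Fin.snoc (α := fun _ => Fin n) s x : Fin (j + 1) → Fin n) i = x :=
          ⟨Fin.last j, by simp [Fin.snoc_last]⟩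
        simp [this]
      · have hiff : (∃ i : Fin (j + 1),
            (Fin.snoc (α := fun _ => Fin n) s p : Fin (j + 1) → Fin n) i = x) ↔
            ∃ i : Fin j, s i = x := by
          constructor
          · rintro ⟨i, hi⟩
            revert hi
            refine Fin.lastCases ?_ (fun i' => ?_) i
            · intro hi
              simp only [Fin.snoc_last] at hi
              exact absurd hi.symm hxp
            · intro hi
              simp only [Fin.snoc_castSucc] at hi
              exact ⟨i', hi⟩
          · rintro ⟨i, hi⟩
            exact ⟨i.castSucc, by simpa [Fin.snoc_castSucc] using hi⟩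
        simp only [hiff, hxp, if_false]

end Vale.Agent.Lib.P197Y
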