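import Vale.Agent.Lib.P197Y.PttSum

/-!
# P197Y: the signed sum of the star function is the Young operator (blueprint Sec 5.3)
-/

open Equiv Finset

namespace Vale.Agent.Lib.P197Y

open Vale.Agent.Lib.P197W

variable {N k t : ℕ}

/-- One permutation: the signed sum over positions of the star function. -/
private theorem F0_psi_one {e : Fin N ≃ Fin k ⊕ Fin t} {r₁ c₁ r₂ c₂ : Fin k → ℕ}
    {rp₁ cp₁ rp₂ cp₂ : Fin N → ℕ}
    (h₁ : IsSum e r₁ c₁ (fun y => (y : ℕ)) (fun _ => 0) rp₁ cp₁)
    (h₂ : IsSum e r₂ c₂ (fun y => (y : ℕ)) (fun _ => 0) rp₂ cp₂)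
    (W : Fin N → ℕ × ℕ) (g : Perm (Fin N)) :
    ∑ f : Fin t → Fin N, eps W f * F0 e r₁ c₁ r₂ c₂ (fun x => starOf W f (g x)) =
      (t.factorial : ℤ) * ptt rp₁ cp₁ rp₂ cp₂ (fun x => W (g x)) := by
  classical
  set ι : Fin t → Fin N := fun y => e.symm (Sum.inr y) with hι
  set κ : Fin k → Fin N := fun x => e.symm (Sum.inl x) with hκ
  have hιinj : Function.Injective ι := fun a b h => by
    have := e.symm.injective h
    simpa using this
  have hικ : ∀ x y, ι y ≠ κ x := fun x y h => by
    have := e.symm.injective h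
    simp at this
  set P : ℤ := ptt r₁ c₁ r₂ c₂ (fun x => W (g (κ x))) with hP
  -- the term of `f`
  have hterm : ∀ f : Fin t → Fin N,
      F0 e r₁ c₁ r₂ c₂ (fun x => starOf W f (g x)) =
        if (∀ y, ∃ y', f y' = g (ι y)) ∧ (∀ x y', f y' ≠ g (κ x)) then P else 0 := by
    intro f
    unfold F0
    have hc : ((∀ y, (fun x => starOf W f (g x)) (e.symm (Sum.inr y)) = none) ∧
        (∀ x, (fun x => starOf W f (g x)) (e.symm (Sum.inl x)) ≠ none)) ↔
        ((∀ y, ∃ y', f y' = g (ι y)) ∧ (∀ x y', f y' ≠ g (κ x))) := by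
      constructor
      · rintro ⟨a, b⟩
        refine ⟨fun y => ?_, fun x y' hy' => ?_⟩
        · have := a y
          simp only [starOf] at this
          by_contra hne
          rw [if_neg hne] at this
          simp at this
        · have := b x
          simp only [starOf] at this
          rw [if_pos ⟨y', hy'⟩] at this
          exact this rfl
      · rintro ⟨a, b⟩
        refine ⟨fun y => ?_, fun x => ?_⟩
        · simp only [starOf]
          rw [if_pos (a y)]
        · simp only [starOf]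
          rw [if_neg (by
            rintro ⟨y', hy'⟩
            exact b x y' hy')]
          simp
    by_cases hC : (∀ y, ∃ y', f y' = g (ι y)) ∧ (∀ x y', f y' ≠ g (κ x))
    · rw [if_pos hC, if_pos (hc.2 hC), hP]
      congr 1
      funext x
      have : starOf W f (g (e.symm (Sum.inl x))) = some (W (g (e.symm (Sum.inl x)))) := by
        simp only [starOf]
        rw [if_neg (by
          rintro ⟨y', hy'⟩
          exact hC.2 x y' hy')]
      simp only [this, Option.getD_some]
      rfl
    · rw [if_neg hC, if_neg (fun h => hC (hc.1 h))]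
  simp_rw [hterm, mul_ite, mul_zero]
  rw [← Finset.sum_filter]
  -- the bijection with permutations
  have hbij : ∑ f ∈ univ.filter (fun f : Fin t → Fin N =>
        (∀ y, ∃ y', f y' = g (ι y)) ∧ (∀ x y', f y' ≠ g (κ x))), eps W f * P =
      ∑ b : Perm (Fin t), eps W ((fun y => g (ι y)) ∘ b) * P := by
    symm
    refine Finset.sum_bij (fun b _ => (fun y => g (ι y)) ∘ b) ?_ ?_ ?_ ?_
    · intro b _
      simp only [Finset.mem_filter, Finset.mem_univ, true_and]
      refine ⟨fun y => ⟨b⁻¹ y, by simp⟩, fun x y' h => ?_⟩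
      exact hικ x (b y') (g.injective h)
    · intro a _ b _ hab
      ext y
      have := congrFun hab y
      exact congrArg _ (hιinj (g.injective this))
    · intro f hf
      simp only [Finset.mem_filter, Finset.mem_univ, true_and] at hf
      obtain ⟨h1, h2⟩ := hf
      have hex : ∀ y', ∃ y, g (ι y) = f y' := by
        intro y'
        rcases hz : e (g⁻¹ (f y')) with x | y
        · exfalso
          apply h2 x y'
          have : g⁻¹ (f y') = κ x := by
            rw [hκ]; simp only; rw [← hz]; simp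
          rw [← this]; simp
        · refine ⟨y, ?_⟩
          have : g⁻¹ (f y') = ι y := by
            rw [hι]; simp only; rw [← hz]; simp
          rw [← this]; simp
      choose φ hφ using hex
      have hsurj : Function.Surjective φ := by
        intro y
        obtain ⟨y', hy'⟩ := h1 y
        refine ⟨y', ?_⟩
        apply hιinj
        apply g.injective
        rw [hφ, hy']
      have hbijφ : Function.Bijective φ :=
        ⟨Finite.injective_iff_surjective.2 hsurj, hsurj⟩
      refine ⟨Equiv.ofBijective φ hbijφ, Finset.mem_univ _, ?_⟩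
      funext y'
      simp [hφ]
    · intro b _
      rfl
  rw [hbij]
  have hconst : ∀ b : Perm (Fin t), eps W ((fun y => g (ι y)) ∘ b) * P =
      eps W (fun y => g (ι y)) * P := by
    intro b
    rw [eps_comp_perm]
  simp_rw [hconst]
  rw [Finset.sum_const, Finset.card_univ, Fintype.card_perm, Fintype.card_fin, nsmul_eq_mul]
  congr 1
  rw [ptt_sum e h₁ h₂]
  rfl

/-- The signed sum of the star function. -/
theorem FF_psi {e : Fin N ≃ Fin k ⊕ Fin t} {r₁ c₁ r₂ c₂ r₃ c₃ : Fin k → ℕ}
    {rp₁ cp₁ rp₂ cp₂ rp₃ cp₃ : Fin N → ℕ}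
    (D : PieriData e r₁ c₁ r₂ c₂ r₃ c₃ rp₁ cp₁ rp₂ cp₂ rp₃ cp₃) (W : Fin N → ℕ × ℕ) :
    ∑ f : Fin t → Fin N, eps W f * FF e r₁ c₁ r₂ c₂ rp₃ cp₃ (starOf W f) =
      (t.factorial : ℤ) * YY rp₃ cp₃ (ptt rp₁ cp₁ rp₂ cp₂) W := by
  unfold FF YY
  simp_rw [Finset.mul_sum]
  rw [Finset.sum_comm]
  refine Finset.sum_congr rfl (fun ρ _ => ?_)
  rw [Finset.sum_comm]
  refine Finset.sum_congr rfl (fun q _ => ?_)
  have h := F0_psi_one (e := e) D.h₁ D.h₂ W (ρ * q)
  simp only [Perm.mul_apply] at h
  calc ∑ f : Fin t → Fin N, eps W f * (sgnZ q * F0 e r₁ c₁ r₂ c₂ (fun x => starOf W f (ρ (q x))))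
      = sgnZ q * ∑ f : Fin t → Fin N, eps W f * F0 e r₁ c₁ r₂ c₂ (fun x => starOf W f (ρ (q x))) := by
        rw [Finset.mul_sum]
        refine Finset.sum_congr rfl (fun f _ => ?_)
        ring
    _ = (t.factorial : ℤ) * (sgnZ q * ptt rp₁ cp₁ rp₂ cp₂ (fun x => W (ρ (q x)))) := by
        rw [h]
        ring

end Vale.Agent.Lib.P197Y
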