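import Vale.Agent.Lib.P197Y.Supp
import Vale.Agent.Lib.P197Y.Psi
import Vale.Agent.Lib.P197Y.Eval

/-!
# P197Y: the Pieri step for the polynomial (blueprint Sec 5.5)
-/

open Equiv Finset

namespace Vale.Agent.Lib.P197Y

open Vale.Agent.Lib.P197W

variable {N k t : ℕ}

/-- **The Pieri step for the polynomial.** -/
theorem poly_pieri {e : Fin N ≃ Fin k ⊕ Fin t} {r₁ c₁ r₂ c₂ r₃ c₃ : Fin k → ℕ}
    {rp₁ cp₁ rp₂ cp₂ rp₃ cp₃ : Fin N → ℕ}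
    (D : PieriData e r₁ c₁ r₂ c₂ r₃ c₃ rp₁ cp₁ rp₂ cp₂ rp₃ cp₃)
    (h : polyF r₁ c₁ r₂ c₂ r₃ c₃ ≠ 0) : polyF rp₁ cp₁ rp₂ cp₂ rp₃ cp₃ ≠ 0 := by
  obtain ⟨W₀, hW₀⟩ := (polyF_ne_zero_iff _ _ _ _ _ _).1 h
  intro h0
  have hY : ∀ W, YY rp₃ cp₃ (ptt rp₁ cp₁ rp₂ cp₂) W = 0 := by
    intro W
    by_contra hne
    exact ((polyF_ne_zero_iff _ _ _ _ _ _).2 ⟨W, hne⟩) h0
  have hF : ∀ v, FF e r₁ c₁ r₂ c₂ rp₃ cp₃ v = 0 := by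
    refine main_inj t _ (FF_supp D) fun W => ?_
    rw [FF_psi D W, hY W, mul_zero]
  have h1 := FF_eval D W₀
  rw [hF] at h1
  have hpos : ((colS (fun y : Fin t => rp₃ (e.symm (Sum.inr y)))).card : ℤ) ≠ 0 := by
    have : 0 < (colS (fun y : Fin t => rp₃ (e.symm (Sum.inr y)))).card :=
      Finset.card_pos.2 ⟨1, by simp [colS]⟩
    exact_mod_cast this.ne'
  exact hW₀ ((mul_eq_zero.1 h1.symm).resolve_left hpos)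

end Vale.Agent.Lib.P197Y
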