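import Vale.Agent.Lib.P197Y.Data
import Vale.Agent.Lib.P197W.SumF

/-!
# P197Y: the product of polytabloids of a sum of fillings (blueprint Sec 5.1)
-/

open Equiv Finset

namespace Vale.Agent.Lib.P197Y

open Vale.Agent.Lib.P197W

variable {N k l t : ℕ}

/-- The polytabloid of a sum of fillings is the product of the polytabloids. -/
theorem pt_sum (e : Fin N ≃ Fin k ⊕ Fin l) {r c : Fin k → ℕ} {r' c' : Fin l → ℕ}
    {rp cp : Fin N → ℕ} (h : IsSum e r c r' c' rp cp) (w : Fin N → ℕ) :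
    pt rp cp w = pt r c (fun x => w (e.symm (Sum.inl x))) *
      pt r' c' (fun y => w (e.symm (Sum.inr y))) := by
  unfold pt
  rw [sum_colS_split e h, Finset.sum_mul_sum]
  refine sum_congr rfl fun a _ => sum_congr rfl fun b _ => ?_
  rw [sgnZ_block]
  have key : (∀ z, rp (((e.trans (Equiv.sumCongr a b)).trans e.symm) z) = w z) ↔
      (∀ x, r (a x) = w (e.symm (Sum.inl x))) ∧ (∀ y, r' (b y) = w (e.symm (Sum.inr y))) := by
    constructor
    · intro H
      refine ⟨fun x => ?_, fun y => ?_⟩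
      · have := H (e.symm (Sum.inl x))
        simpa [h.row_inl] using this
      · have := H (e.symm (Sum.inr y))
        simpa [h.row_inr] using this
    · rintro ⟨H1, H2⟩ z
      rcases he : e z with x | y
      · have h1 : z = e.symm (Sum.inl x) := by rw [← he]; simp
        rw [h1]
        simpa [h.row_inl] using H1 x
      · have h1 : z = e.symm (Sum.inr y) := by rw [← he]; simp
        rw [h1]
        simpa [h.row_inr] using H2 y
  by_cases h1 : ∀ x, r (a x) = w (e.symm (Sum.inl x))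
  · by_cases h2 : ∀ y, r' (b y) = w (e.symm (Sum.inr y))
    · rw [if_pos (key.2 ⟨h1, h2⟩), if_pos h1, if_pos h2]
      ring
    · rw [if_neg (fun H => h2 (key.1 H).2), if_neg h2]
      ring
  · rw [if_neg (fun H => h1 (key.1 H).1), if_neg h1]
    ring

/-- The product of two polytabloids of a sum with a new column. -/
theorem ptt_sum (e : Fin N ≃ Fin k ⊕ Fin t) {r₁ c₁ r₂ c₂ : Fin k → ℕ} {rp₁ cp₁ rp₂ cp₂ : Fin N → ℕ}
    (h₁ : IsSum e r₁ c₁ (fun y => (y : ℕ)) (fun _ => 0) rp₁ cp₁)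
    (h₂ : IsSum e r₂ c₂ (fun y => (y : ℕ)) (fun _ => 0) rp₂ cp₂) (W : Fin N → ℕ × ℕ) :
    ptt rp₁ cp₁ rp₂ cp₂ W =
      eps W (fun y => e.symm (Sum.inr y)) * ptt r₁ c₁ r₂ c₂ (fun x => W (e.symm (Sum.inl x))) := by
  unfold ptt eps sgnS
  rw [pt_sum e h₁, pt_sum e h₂]
  ring

end Vale.Agent.Lib.P197Y
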