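import Vale.Agent.Lib.P197Y.PolyPieri
import Vale.Agent.Lib.P197W.Ops
import Vale.Agent.Lib.P197W.Conj

/-!
# P197Y: the Pieri step for the Kronecker coefficients (blueprint Sec 6)
-/

open Equiv Finset

namespace Vale.Agent.Lib.P197Y

open Vale.Agent.Lib.P197 Vale.Agent.Lib.P197W

/-- `bp / b` is a horizontal strip. -/
structure IsHStrip (b bp : YoungDiagram) : Prop where
  sub : b.cells ⊆ bp.cells
  col_inj : ∀ c ∈ bp.cells \ b.cells, ∀ c' ∈ bp.cells \ b.cells, c.2 = c'.2 → c = c'

/-- A filling of `bp` extending a filling of `b` by the strip. -/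
theorem exists_strip_fill {N k t : ℕ} {b bp : YoungDiagram} (hs : IsHStrip b bp)
    (hN : bp.card = N) (hk : b.card = k) (ht : k + t = N) (e : Fin N ≃ Fin k ⊕ Fin t)
    (T : Filling k b) :
    ∃ Tp : Filling N bp,
      (∀ x, rowOf Tp (e.symm (Sum.inl x)) = rowOf T x) ∧
      (∀ x, colOf Tp (e.symm (Sum.inl x)) = colOf T x) ∧
      (∀ z y, colOf Tp z = colOf Tp (e.symm (Sum.inr y)) →
        rowOf Tp z ≤ rowOf Tp (e.symm (Sum.inr y))) := by
  classical
  have hScard : (bp.cells \ b.cells).card = t := by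
    rw [Finset.card_sdiff_of_subset hs.sub]
    have h1 : bp.cells.card = N := hN
    have h2 : b.cells.card = k := hk
    omega
  let s : Fin t ≃ {c // c ∈ bp.cells \ b.cells} :=
    (Fintype.equivFinOfCardEq (by simpa using hScard)).symm
  have hin : ∀ x, (T x).1 ∈ bp.cells := fun x => hs.sub (T x).2
  have hin' : ∀ y, (s y).1 ∈ bp.cells := fun y => (Finset.mem_sdiff.1 (s y).2).1
  have hnot : ∀ y, (s y).1 ∉ b.cells := fun y => (Finset.mem_sdiff.1 (s y).2).2
  let F : Fin N → {c // c ∈ bp.cells} := fun z =>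
    Sum.elim (fun x : Fin k => (⟨(T x).1, hin x⟩ : {c // c ∈ bp.cells}))
      (fun y : Fin t => (⟨(s y).1, hin' y⟩ : {c // c ∈ bp.cells})) (e z)
  have hFl : ∀ x, F (e.symm (Sum.inl x)) = ⟨(T x).1, hin x⟩ := by
    intro x; simp [F]
  have hFr : ∀ y, F (e.symm (Sum.inr y)) = ⟨(s y).1, hin' y⟩ := by
    intro y; simp [F]
  have hinj : Function.Injective F := by
    intro z z' hzz
    apply e.injective
    have h1 : F (e.symm (e z)) = F (e.symm (e z')) := by
      rw [e.symm_apply_apply, e.symm_apply_apply]; exact hzz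
    rcases h2 : e z with x | y <;> rcases h3 : e z' with x' | y'
    · rw [h2, h3, hFl, hFl] at h1
      have h4 : (T x).1 = (T x').1 := Subtype.mk.inj h1
      rw [T.injective (Subtype.ext h4)]
    · rw [h2, h3, hFl, hFr] at h1
      have h4 : (T x).1 = (s y').1 := Subtype.mk.inj h1
      exact absurd (h4 ▸ (T x).2) (hnot y')
    · rw [h2, h3, hFr, hFl] at h1
      have h4 : (s y).1 = (T x').1 := Subtype.mk.inj h1
      exact absurd (h4.symm ▸ (T x').2) (hnot y)
    · rw [h2, h3, hFr, hFr] at h1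
      have h4 : (s y).1 = (s y').1 := Subtype.mk.inj h1
      rw [s.injective (Subtype.ext h4)]
  have hbij : Function.Bijective F := by
    rw [Fintype.bijective_iff_injective_and_card]
    refine ⟨hinj, ?_⟩
    simp only [Fintype.card_fin, Fintype.card_coe]
    exact hN.symm
  let Tp : Filling N bp := Equiv.ofBijective F hbij
  have hTp : ∀ z, (Tp z) = F z := fun z => rfl
  refine ⟨Tp, ?_, ?_, ?_⟩
  · intro x
    simp only [rowOf, hTp, hFl]
  · intro x
    simp only [colOf, hTp, hFl]
  · intro z y hcol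
    by_contra hlt
    push Not at hlt
    simp only [colOf, rowOf, hTp, hFr] at hcol hlt
    have hc := (F z).2
    have hd := hin' y
    have hcnot : (F z).1 ∉ b.cells := by
      intro hcb
      apply hnot y
      have hle : (s y).1 ≤ (F z).1 := Prod.mk_le_mk.2 ⟨hlt.le, hcol.symm.le⟩
      exact b.isLowerSet hle hcb
    have heq := hs.col_inj _ (Finset.mem_sdiff.2 ⟨hc, hcnot⟩) _ (Finset.mem_sdiff.2 ⟨hd, hnot y⟩) hcol
    rw [heq] at hlt
    exact lt_irrefl _ hlt

/-- A filling determines its label from the row and the column. -/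
theorem fill_cell {n : ℕ} {μ : YoungDiagram} (T : Filling n μ) (z z' : Fin n)
    (h1 : rowOf T z = rowOf T z') (h2 : colOf T z = colOf T z') : z = z' :=
  T.injective (Subtype.ext (Prod.ext h1 h2))

/-- The number of labels in a row of the staircase. -/
theorem staircase_row_count {m : ℕ} (T : Filling (m * (m + 1) / 2) (staircase m)) (i : ℕ)
    (hi : i < m + 1) : (univ.filter fun x => rowOf T x = i).card + i + 1 ≤ m + 1 := by
  have hmaps : ∀ x ∈ (univ.filter fun x => rowOf T x = i), colOf T x ∈ range (m - i) := by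
    intro x hx
    have hr : rowOf T x = i := (Finset.mem_filter.1 hx).2
    have hc : (T x).1 ∈ staircase m := (YoungDiagram.mem_cells _).1 (T x).2
    have h2 := (mem_st m (T x).1).1 hc
    have h3 : i + colOf T x < m := by
      rw [← hr]
      exact h2
    exact Finset.mem_range.2 (by omega)
  have hinj : Set.InjOn (fun x => colOf T x) (↑(univ.filter fun x => rowOf T x = i) : Set _) := by
    intro x hx y hy hxy
    have hrx : rowOf T x = i := (Finset.mem_filter.1 (Finset.mem_coe.1 hx)).2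
    have hry : rowOf T y = i := (Finset.mem_filter.1 (Finset.mem_coe.1 hy)).2
    apply T.injective
    apply Subtype.ext
    exact Prod.ext (hrx.trans hry.symm) hxy
  have hcard := Finset.card_le_card_of_injOn (fun x => colOf T x) hmaps hinj
  rw [Finset.card_range] at hcard
  omega

/-- **The Pieri step.** -/
theorem pieri_step (m : ℕ) (b bp : YoungDiagram) (hb : b.card = m * (m + 1) / 2)
    (hbp : bp.card = (m + 1) * (m + 1 + 1) / 2) (hs : IsHStrip b bp) (h : PosS m b) :
    PosS (m + 1) bp := by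
  have hk2 : 2 * (m * (m + 1) / 2) = m * (m + 1) := by
    have := Nat.even_mul_succ_self m
    exact Nat.two_mul_div_two_of_even this
  have hN2 : 2 * ((m + 1) * (m + 1 + 1) / 2) = (m + 1) * (m + 1 + 1) := by
    have := Nat.even_mul_succ_self (m + 1)
    exact Nat.two_mul_div_two_of_even this
  have hN : (m + 1) * (m + 1 + 1) / 2 = m * (m + 1) / 2 + (m + 1) := by
    have : (m + 1) * (m + 1 + 1) = m * (m + 1) + 2 * (m + 1) := by ring
    omega
  let e : Fin ((m + 1) * (m + 1 + 1) / 2) ≃ Fin (m * (m + 1) / 2) ⊕ Fin (m + 1) :=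
    (finCongr hN).trans finSumFinEquiv.symm
  have hst : Fintype.card (Fin (m * (m + 1) / 2)) = Fintype.card {c // c ∈ (staircase m).cells} := by
    simp only [Fintype.card_fin, Fintype.card_coe]
    exact (staircase_card m).symm
  have hrc : Fintype.card (Fin (m * (m + 1) / 2)) = Fintype.card {c // c ∈ b.cells} := by
    simp only [Fintype.card_fin, Fintype.card_coe]
    exact hb.symm
  let A₁ : Filling (m * (m + 1) / 2) (staircase m) := Fintype.equivOfCardEq hst
  let A₃ : Filling (m * (m + 1) / 2) b := Fintype.equivOfCardEq hrc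
  intro T₁ T₂ T₃
  obtain ⟨σ₁, σ₂, σ₃, hne⟩ := poly_of_pos A₁ A₁ A₃ (h A₁ A₁ A₃)
  obtain ⟨Tp₁, h₁⟩ := exists_staircase_sum m rfl rfl rfl e (σ₁.trans A₁)
  obtain ⟨Tp₂, h₂⟩ := exists_staircase_sum m rfl rfl rfl e (σ₂.trans A₁)
  obtain ⟨Tp₃, h₃, h₄, h₅⟩ := exists_strip_fill hs hbp hb hN.symm e (σ₃.trans A₃)
  have D : PieriData e (rowOf (σ₁.trans A₁)) (colOf (σ₁.trans A₁))
      (rowOf (σ₂.trans A₁)) (colOf (σ₂.trans A₁))
      (rowOf (σ₃.trans A₃)) (colOf (σ₃.trans A₃))
      (rowOf Tp₁) (colOf Tp₁) (rowOf Tp₂) (colOf Tp₂) (rowOf Tp₃) (colOf Tp₃) :=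
    { h₁ := h₁
      h₂ := h₂
      row₃ := h₃
      col₃ := h₄
      bottom := h₅
      cell := fill_cell Tp₃
      count := fun i hi => staircase_row_count (σ₁.trans A₁) i hi }
  have hP : polyP Tp₁ Tp₂ Tp₃ ≠ 0 := poly_pieri D hne
  have hR := pos_of_poly Tp₁ Tp₂ Tp₃ hP
  rw [rr_indep T₁ Tp₁, rr_indep T₂ Tp₂, rr_indep T₃ Tp₃]
  exact hR

end Vale.Agent.Lib.P197Y
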