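import Vale.Agent.Lib.P197Y.Step

/-!
# P197Y: removing the bottom cells of a set of columns (blueprint Sec 7)
-/

open Finset

namespace Vale.Agent.Lib.P197Y

open Vale.Agent.Lib.P197 Vale.Agent.Lib.P197W

/-- The size of a staircase. -/
abbrev NN (t : ℕ) : ℕ := t * (t + 1) / 2

/-- The closure condition of a set of columns. -/
def ColClosed (β : YoungDiagram) (J : Finset ℕ) : Prop :=
  (∀ j ∈ J, j < β.rowLen 0) ∧ ∀ j ∈ J, ∀ j', j ≤ j' → β.colLen j' = β.colLen j → j' ∈ J

/-- The diagram `β` without the bottom cells of the columns in `J`. -/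
def stripD (β : YoungDiagram) (J : Finset ℕ) (hJ : ColClosed β J) : YoungDiagram where
  cells := β.cells.filter fun c => ¬ (c.2 ∈ J ∧ c.1 + 1 = β.colLen c.2)
  isLowerSet := by
    intro a b hab ha
    simp only [coe_filter, Set.mem_ofPred_eq] at ha ⊢
    have ha1 : a ∈ β.cells := ha.1
    have hb1 : b ∈ β.cells := β.isLowerSet hab ha1
    refine ⟨hb1, ?_⟩
    rintro ⟨hb2, hb3⟩
    apply ha.2
    have hla : (a.1, a.2) ∈ β := by simpa using ha1
    have h1 : a.1 < β.colLen a.2 := YoungDiagram.mem_iff_lt_colLen.1 hla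
    have h2 : β.colLen a.2 ≤ β.colLen b.2 := β.colLen_anti _ _ hab.2
    have h3 : b.1 ≤ a.1 := hab.1
    have h4 : β.colLen a.2 = β.colLen b.2 := by omega
    exact ⟨hJ.2 _ hb2 _ hab.2 h4, by omega⟩

theorem mem_stripD (β : YoungDiagram) (J : Finset ℕ) (hJ : ColClosed β J) (c : ℕ × ℕ) :
    c ∈ stripD β J hJ ↔ c ∈ β ∧ ¬ (c.2 ∈ J ∧ c.1 + 1 = β.colLen c.2) := by
  change c ∈ β.cells.filter (fun c => ¬ (c.2 ∈ J ∧ c.1 + 1 = β.colLen c.2)) ↔ _
  rw [mem_filter]
  rfl

theorem stripD_card (β : YoungDiagram) (J : Finset ℕ) (hJ : ColClosed β J) :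
    (stripD β J hJ).card + J.card = β.card := by
  have h0 : (β.cells.filter fun c => c.2 ∈ J ∧ c.1 + 1 = β.colLen c.2).card = J.card := by
    apply Finset.card_bij (fun c _ => c.2)
    · intro c hc
      exact (mem_filter.1 hc).2.1
    · intro c hc c' hc' h
      have h1 := (mem_filter.1 hc).2.2
      have h2 := (mem_filter.1 hc').2.2
      have h' : c.2 = c'.2 := h
      rw [h'] at h1
      exact Prod.ext (by omega) h'
    · intro j hj
      have h1 : j < β.rowLen 0 := hJ.1 j hj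
      have h2 : (0, j) ∈ β := YoungDiagram.mem_iff_lt_rowLen.2 h1
      have h3 : 0 < β.colLen j := YoungDiagram.mem_iff_lt_colLen.1 h2
      have h4 : (β.colLen j - 1, j) ∈ β := YoungDiagram.mem_iff_lt_colLen.2 (by omega)
      refine ⟨(β.colLen j - 1, j), ?_, rfl⟩
      refine mem_filter.2 ⟨h4, hj, ?_⟩
      simp only
      omega
  have h1 : (stripD β J hJ).card = (β.cells.filter fun c => ¬ (c.2 ∈ J ∧ c.1 + 1 = β.colLen c.2)).card := rfl
  have h2 := Finset.card_filter_add_card_filter_not (s := β.cells)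
    (fun c : ℕ × ℕ => c.2 ∈ J ∧ c.1 + 1 = β.colLen c.2)
  have h3 : β.card = β.cells.card := rfl
  omega

theorem stripD_hstrip (β : YoungDiagram) (J : Finset ℕ) (hJ : ColClosed β J) :
    IsHStrip (stripD β J hJ) β := by
  have key : ∀ c ∈ β.cells \ (stripD β J hJ).cells, c.1 + 1 = β.colLen c.2 := by
    intro c hc
    obtain ⟨h1, h2⟩ := mem_sdiff.1 hc
    by_contra h3
    apply h2
    have : c ∈ stripD β J hJ := (mem_stripD β J hJ c).2 ⟨h1, fun h4 => h3 h4.2⟩
    exact this
  constructor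
  · intro c hc
    have : c ∈ stripD β J hJ := hc
    exact ((mem_stripD β J hJ c).1 this).1
  · intro c hc c' hc' h
    have h1 := key c hc
    have h2 := key c' hc'
    rw [h] at h1
    exact Prod.ext (by omega) h

/-- The rightmost `t` columns are closed. -/
theorem rightmost_closed (β : YoungDiagram) (t : ℕ) :
    ColClosed β (Finset.Ico (β.rowLen 0 - t) (β.rowLen 0)) := by
  constructor
  · intro j hj
    exact (mem_Ico.1 hj).2
  · intro j hj j' hjj' hcol
    obtain ⟨h1, h2⟩ := mem_Ico.1 hj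
    have h3 : (0, j) ∈ β := YoungDiagram.mem_iff_lt_rowLen.2 h2
    have h4 : 0 < β.colLen j := YoungDiagram.mem_iff_lt_colLen.1 h3
    have h5 : (0, j') ∈ β := YoungDiagram.mem_iff_lt_colLen.2 (by omega)
    have h6 : j' < β.rowLen 0 := YoungDiagram.mem_iff_lt_rowLen.1 h5
    exact mem_Ico.2 ⟨by omega, h6⟩

end Vale.Agent.Lib.P197Y
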