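import Vale.Agent.Lib.P197Y.PttSum

/-!
# P197Y: the support of the star function (blueprint Sec 5.2)
-/

open Equiv Finset

namespace Vale.Agent.Lib.P197Y

open Vale.Agent.Lib.P197W

variable {N k t : ℕ}

/-- The star function is supported on the domain of the ladder. -/
theorem FF_supp {e : Fin N ≃ Fin k ⊕ Fin t} {r₁ c₁ r₂ c₂ r₃ c₃ : Fin k → ℕ}
    {rp₁ cp₁ rp₂ cp₂ rp₃ cp₃ : Fin N → ℕ}
    (D : PieriData e r₁ c₁ r₂ c₂ r₃ c₃ rp₁ cp₁ rp₂ cp₂ rp₃ cp₃) (v : SW N)
    (hv : FF e r₁ c₁ r₂ c₂ rp₃ cp₃ v ≠ 0) : Dom t 0 v := by
  classical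
  unfold FF at hv
  obtain ⟨ρ, _, hne⟩ := Finset.exists_ne_zero_of_sum_ne_zero hv
  obtain ⟨q, _, hne2⟩ := Finset.exists_ne_zero_of_sum_ne_zero hne
  have hF0 : F0 e r₁ c₁ r₂ c₂ (fun x => v (ρ (q x))) ≠ 0 := right_ne_zero_of_mul hne2
  unfold F0 at hF0
  by_cases hcond : (∀ y, v (ρ (q (e.symm (Sum.inr y)))) = none) ∧
      (∀ x, v (ρ (q (e.symm (Sum.inl x)))) ≠ none)
  swap
  · exact absurd (if_neg hcond) hF0
  rw [if_pos hcond] at hF0
  obtain ⟨h1', h2'⟩ := hcond
  let g : Perm (Fin N) := q.trans ρ
  have hg : ∀ x, g x = ρ (q x) := fun x => rfl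
  have h1 : ∀ y, v (g (e.symm (Sum.inr y))) = none := h1'
  have h2 : ∀ x, v (g (e.symm (Sum.inl x))) ≠ none := h2'
  unfold ptt at hF0
  have hpt := left_ne_zero_of_mul hF0
  unfold pt at hpt
  obtain ⟨a, _, hane⟩ := Finset.exists_ne_zero_of_sum_ne_zero hpt
  have ha : ∀ x, r₁ (a x) = ((v (g (e.symm (Sum.inl x)))).getD (0, 0)).1 := by
    by_cases hall : ∀ x, r₁ (a x) = ((v (ρ (q (e.symm (Sum.inl x))))).getD (0, 0)).1
    · exact hall
    · exfalso
      apply hane
      rw [if_neg hall, mul_zero]
  have hstars : stars v = (univ : Finset (Fin t)).image (fun y => g (e.symm (Sum.inr y))) := by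
    ext z
    simp only [stars, mem_filter, mem_univ, true_and, mem_image]
    constructor
    · intro hz
      rcases hw : e (g.symm z) with x | y
      · exfalso
        apply h2 x
        have hzz : g (e.symm (Sum.inl x)) = z := by rw [← hw]; simp
        rw [hzz]; exact hz
      · refine ⟨y, ?_⟩
        rw [← hw]; simp
    · rintro ⟨y, rfl⟩
      exact h1 y
  have hcard : (stars v).card = t := by
    rw [hstars, Finset.card_image_of_injective]
    · simp
    · intro y y' h
      simpa using h
  have hcount : ∀ i, fstCount v i ≤ (univ.filter fun x => r₁ x = i).card := by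
    intro i
    unfold fstCount
    calc (univ.filter fun x => (v x).map Prod.fst = some i).card
        ≤ ((univ.filter fun x => r₁ x = i).image
            (fun x' => g (e.symm (Sum.inl (a.symm x'))))).card := by
          apply Finset.card_le_card
          intro z hz
          simp only [mem_filter, mem_univ, true_and] at hz
          rw [mem_image]
          rcases hw : e (g.symm z) with x | y
          · have hz' : g (e.symm (Sum.inl x)) = z := by rw [← hw]; simp
            refine ⟨a x, ?_, by simpa using hz'⟩
            simp only [mem_filter, mem_univ, true_and]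
            rw [ha x, hz']
            cases hvz : v z with
            | none => simp [hvz] at hz
            | some p =>
              simp only [hvz, Option.map_some, Option.some.injEq] at hz
              simpa using hz
          · exfalso
            have hz' : g (e.symm (Sum.inr y)) = z := by rw [← hw]; simp
            have hnone := h1 y
            rw [hz'] at hnone
            simp [hnone] at hz
      _ ≤ _ := Finset.card_image_le
  refine ⟨by omega, fun i _ hi => ?_⟩
  have h3 := D.count i hi
  have h4 := hcount i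
  omega

end Vale.Agent.Lib.P197Y
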